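import Vale.Agent.P371.Lower

open Vale.Agent.P371

theorem Vale.Agent.Results.P371.Sharp.result (γ : ℝ) (h1 : 1 / 2 < γ) (h2 : γ < 3 / 2) (m : ℕ)
    (hm : 1 ≤ m) :
    Vale.Agent.P371.LT γ m = ENNReal.ofReal (2 * ((γ - 1 / 2) / (γ + 1 / 2)) ^ (γ - 1 / 2) *
      (Real.Gamma (γ + 1) / (2 * √Real.pi * Real.Gamma (γ + 3 / 2)))) := by
  obtain ⟨q, rfl⟩ : ∃ q, γ = q + 1 / 2 := ⟨γ - 1 / 2, by ring⟩
  have hq : 0 < q := by linarith
  rw [LT_eq hq (by linarith) hm, Bq_eq hq, add_sub_cancel_right,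
    show q + 1 / 2 + 1 / 2 = 1 + q by ring, show q + 1 / 2 + 1 = q + 3 / 2 by ring,
    show q + 1 / 2 + 3 / 2 = q + 1 + 1 by ring, Real.Gamma_add_one (by positivity : q + 1 ≠ 0),
    Real.rpow_one_add' (by positivity) (by positivity)]
  congr 1
  have g1 : 0 < Real.Gamma (q + 3 / 2) := Real.Gamma_pos_of_pos (by linarith)
  have g2 : 0 < Real.Gamma (q + 1) := Real.Gamma_pos_of_pos (by linarith)
  have g3 : 0 < √Real.pi := Real.sqrt_pos.mpr Real.pi_pos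
  generalize Real.Gamma (q + 3 / 2) = A at *
  generalize Real.Gamma (q + 1) = C at *
  generalize (q / (1 + q)) ^ q = D
  field_simp
  ring
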